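import Vale.Agent.P237B.Main
import Vale.Agent.P237B.Stmt

namespace Vale.Agent.Results.P237.A_petty

open Vale.Agent.P237B
open scoped RealInnerProductSpace

theorem result (n : ℕ) (hn : 4 ≤ n) (K : Set (E n)) (hK : IsBody K) :
    (IsBody (piBody K) ∧ (∀ x ∈ piBody K, -x ∈ piBody K) ∧
      ∀ u : E n, ‖u‖ = 1 → IsGreatest ((fun x => ⟪x, u⟫) '' piBody K) (projVol (perp u) K)) ∧
    kappa (n - 1) ^ n * kappa n ^ (2 - (n : ℤ)) * vol K ^ (n - 1) ≤ vol (piBody K) ∧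
    (vol (piBody K) = kappa (n - 1) ^ n * kappa n ^ (2 - (n : ℤ)) * vol K ^ (n - 1) ↔
      IsEllipsoid K) := by
  haveI : NeZero n := ⟨by omega⟩
  exact ⟨⟨isBody_projBody hK, fun _ => neg_mem_projBody hK, fun _ => isGreatest_shadow hK⟩,
    final_form (petty hn hK)⟩

end Vale.Agent.Results.P237.A_petty
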